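import Vale.Agent.P271.Defs
import Vale.Agent.P271.Main

open scoped Manifold ContDiff
open Vale.Agent.P271

/-- Fujita's freeness conjecture: for an ample line bundle `L` on a compact connected complex
manifold of dimension `n`, the adjoint bundle `K + mL` is globally generated for `m ≥ n + 1`. -/
theorem Vale.Agent.Results.P271.Freeness.result
    {E : Type*} [NormedAddCommGroup E] [NormedSpace ℂ E] [FiniteDimensional ℂ E]
    {n : ℕ} (hE : Module.finrank ℂ E = n) (hn : 1 ≤ n)
    {X : Type*} [TopologicalSpace X] [ChartedSpace E X] [IsManifold 𝓘(ℂ, E) ω X]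
    [T2Space X] [CompactSpace X] [ConnectedSpace X]
    {ι : Type*} (L : LineBundle E X ι) (hL : L.IsAmple) (m : ℕ) (hm : n + 1 ≤ m) :
    L.AdjointFree m :=
  Fuj.main (hE ▸ hn) L hL m (hE ▸ hm)
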